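import Vale.Agent.Lib.P069t.Tree

/-!
# P069: a reflexive AMUC space with no equivalent AUC norm

The space is an `ℓ²` sum of tree spaces of finite height. The norm on a node with coordinate `x₀`
and children `xₘ` is `U x + U (-x)`, where
`U x = max ‖(U xₘ)‖₂ (‖(U (-xₘ))‖₂ + x₀)`.
On a branch this is the total variation, so the sums along the branches of a weakly null tree of
any height stay bounded, which excludes every equivalent AUC norm, while the choice of a sign
always produces a gain of order `t ^ 4`.
-/

namespace Vale.Agent.Results.P069.A_counterexample

open Vale.Agent.Lib.P069t

/-- There is an infinite dimensional reflexive real Banach space whose norm is asymptotically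
midpoint uniformly convex and which has no equivalent asymptotically uniformly convex norm. -/
theorem result : ∃ (X : Type) (_ : NormedAddCommGroup X) (_ : NormedSpace ℝ X),
    CompleteSpace X ∧ ¬ FiniteDimensional ℝ X ∧
    Function.Surjective (NormedSpace.inclusionInDoubleDual ℝ X) ∧
    IsAMUC (fun x : X => ‖x‖) ∧
    ∀ N : X → ℝ, IsEquivalentNorm N → ¬ IsAUC N :=
  main

end Vale.Agent.Results.P069.A_counterexample
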