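import Vale.Agent.Lib.P069.Midpoint

open NormedSpace

namespace Vale.Agent.Results.P069.A_main

/-- **A reflexive Banach space with an asymptotically midpoint uniformly convex norm and no
equivalent asymptotically uniformly convex norm.** -/
theorem result :
    ∃ (X : Type) (_ : NormedAddCommGroup X) (_ : NormedSpace ℝ X),
      CompleteSpace X ∧ ¬ FiniteDimensional ℝ X ∧
      Function.Surjective (inclusionInDoubleDual ℝ X) ∧
      P069.IsAMUC (fun x : X => ‖x‖) ∧
      (∀ t : ℝ, 0 < t → t ≤ 1 → t ^ 2 / 180 ≤ P069.midModulus (fun x : X => ‖x‖) t) ∧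
      ¬ ∃ N : X → ℝ, P069.IsEquivNorm N ∧ P069.IsAUC N := by
  refine ⟨P069.XX, inferInstance, inferInstance, inferInstance, P069.not_finiteDimensional_XX,
    P069.reflexive_XX, P069.isAMUC_XX, fun t ht ht1 => ?_, P069.not_auc_XX⟩
  have h := P069.midModulus_XX ht
  have e : min 1 (t ^ 2 / 20) = t ^ 2 / 20 := min_eq_right (by nlinarith)
  rw [e] at h
  calc t ^ 2 / 180 = t ^ 2 / 20 / 9 := by ring
    _ ≤ _ := h

end Vale.Agent.Results.P069.A_main
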